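import Crest.Agent.Helper77.S0112.FlowAvg
import Crest.Agent.Helper68.S0112.Calc
import Crest.Agent.Helper63.S0112.Fourier

/-!
# S0112 (row 84), package D in the shape consumed by the assembly

`exists_smooth`: for `a ∈ S.M`, an integrable kernel `f` with Fourier transform `F` (a bounded
continuous function vanishing off `[α, β]`), the smoothed operator `a' = σ_f(a)` lies in `S.M`,
has `‖a'‖ ≤ ‖f‖₁ ‖a‖`, `a' ξ = F(D) (a ξ)` and `a'* ξ` is spectrally supported in `[-β, -α]`.
-/

set_option autoImplicit false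
set_option linter.unusedSectionVars false

namespace Crest.Agent.Helper77.S0112

open Crest.OpAlg MeasureTheory Filter Topology
open scoped ComplexConjugate InnerProductSpace BoundedContinuousFunction

variable {H : Type*} [NormedAddCommGroup H] [InnerProductSpace ℂ H] [CompleteSpace H]

/-- The wave group of a `LineCalculus` is a strongly continuous unitary group. -/
theorem uGroup_wave (D : LineCalculus H) : UGroup D.wave :=
  ⟨Crest.Agent.Helper68.S0112.wave_zero D, Crest.Agent.Helper68.S0112.wave_add D,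
    Crest.Agent.Helper68.S0112.norm_wave_apply D,
    Crest.Agent.Helper68.S0112.continuous_wave_apply D⟩

/-- The reflected conjugate `u ↦ conj (F (-u))` of a bounded continuous function. -/
noncomputable def reflConj (F : ℝ →ᵇ ℂ) : ℝ →ᵇ ℂ :=
  star (F.compContinuous ⟨fun u : ℝ => -u, continuous_neg⟩)

theorem reflConj_apply (F : ℝ →ᵇ ℂ) (u : ℝ) : reflConj F u = conj (F (-u)) := rfl

theorem reflConj_fourier (f : ℝ → ℂ) (F : ℝ →ᵇ ℂ)
    (hF : ∀ u, F u = ∫ t, f t * Complex.exp (Complex.I * ((t * u : ℝ) : ℂ))) (u : ℝ) :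
    reflConj F u = ∫ t, conj (f t) * Complex.exp (Complex.I * ((t * u : ℝ) : ℂ)) := by
  rw [reflConj_apply, hF, ← integral_conj]
  refine integral_congr_ae (Filter.Eventually.of_forall fun t => ?_)
  simp only [map_mul]
  congr 1
  rw [← Complex.exp_conj]
  congr 1
  simp only [map_mul, Complex.conj_I, Complex.conj_ofReal]
  push_cast
  ring

/-- **Package D** (shape consumed by the assembly). -/
theorem exists_smooth (S : ModularDatum H) (hvac : ∀ t, S.D.wave t S.vac = S.vac)
    (f : ℝ → ℂ) (hf : Integrable f) (F : BoundedContinuousFunction ℝ ℂ)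
    (hF : ∀ u, F u = ∫ t, f t * Complex.exp (Complex.I * ((t * u : ℝ) : ℂ)))
    (α β : ℝ) (hsupp : ∀ u, u ∉ Set.Icc α β → F u = 0)
    (a : H →L[ℂ] H) (ha : a ∈ S.M) :
    ∃ a' ∈ S.M, ‖a'‖ ≤ (∫ t, ‖f t‖) * ‖a‖ ∧ a' S.vac = S.D.apply F (a S.vac) ∧
      S.D.SupportedIn (Set.Icc (-β) (-α)) (star a' S.vac) := by
  have hU : UGroup S.D.wave := uGroup_wave S.D
  refine ⟨flowAvg S.D.wave f a, flowAvg_mem hU hf S.M S.flow_mem ha, norm_flowAvg_le hU hf a,
    ?_, ?_⟩
  · rw [flowAvg_vac hU hf hvac a]
    exact (Crest.Agent.Helper63.S0112.apply_eq_integral_wave S.D f hf F hF (a S.vac)).symm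
  · rw [star_flowAvg hU hf a, flowAvg_vac hU (integrable_conj hf) hvac (star a),
      ← Crest.Agent.Helper63.S0112.apply_eq_integral_wave S.D (fun t => conj (f t))
        (integrable_conj hf) (reflConj F) (reflConj_fourier f F hF) (star a S.vac)]
    refine Crest.Agent.Helper68.S0112.supportedIn_apply_of_vanish (fun u hu => ?_) _
    rw [reflConj_apply, hsupp (-u) (fun h => hu ⟨by linarith [h.2], by linarith [h.1]⟩)]
    simp

end Crest.Agent.Helper77.S0112
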