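import Crest.Agent.Helper77.S0112.Ergodic
import Crest.Agent.Helper77.S0112.Smooth

/-!
# S0112 (row 84), package A6 + E2: the mean ergodic theorem for window averages

Abstract form (`tendsto_wavg`): for a strongly continuous unitary group `U` whose fixed space is
`ℂ ξ` (`‖ξ‖ = 1`), the window averages `(2k)⁻¹ ∫_{-k}^{k} U t z dt` converge in norm to
`⟪ξ, z⟫ ξ`. Prelude form (`window_avg_tendsto`): the shape (E2) consumed by the assembly.
-/

set_option autoImplicit false
set_option linter.unusedSectionVars false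

namespace Crest.Agent.Helper77.S0112

open MeasureTheory Filter Topology
open scoped ComplexConjugate InnerProductSpace NNReal

variable {H : Type*} [NormedAddCommGroup H] [InnerProductSpace ℂ H] [CompleteSpace H]
variable {U : ℝ → H →L[ℂ] H}

/-- Window average of an orbit: `(2k)⁻¹ ∫_{-k}^{k} U t y dt`. -/
noncomputable def wavg (U : ℝ → H →L[ℂ] H) (k : ℕ) (y : H) : H :=
  ((2 * (k : ℝ))⁻¹ : ℝ) • ∫ t in (-(k : ℝ))..(k : ℝ), U t y

theorem wavg_zero (k : ℕ) : wavg U k 0 = 0 := by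
  unfold wavg; simp

theorem wavg_add (hU : UGroup U) (k : ℕ) (y₁ y₂ : H) :
    wavg U k (y₁ + y₂) = wavg U k y₁ + wavg U k y₂ := by
  unfold wavg
  simp only [map_add]
  rw [intervalIntegral.integral_add ((hU.cont y₁).intervalIntegrable _ _)
    ((hU.cont y₂).intervalIntegrable _ _), smul_add]

theorem wavg_sub (hU : UGroup U) (k : ℕ) (y₁ y₂ : H) :
    wavg U k (y₁ - y₂) = wavg U k y₁ - wavg U k y₂ := by
  unfold wavg
  simp only [map_sub]
  rw [intervalIntegral.integral_sub ((hU.cont y₁).intervalIntegrable _ _)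
    ((hU.cont y₂).intervalIntegrable _ _), smul_sub]

theorem wavg_smul (k : ℕ) (c : ℂ) (y : H) : wavg U k (c • y) = c • wavg U k y := by
  unfold wavg
  simp only [map_smul]
  rw [intervalIntegral.integral_smul, smul_comm]

theorem norm_wavg_le (hU : UGroup U) (k : ℕ) (y : H) : ‖wavg U k y‖ ≤ ‖y‖ := by
  unfold wavg
  rcases Nat.eq_zero_or_pos k with rfl | hk
  · simp
  · have hk' : (0 : ℝ) < k := by exact_mod_cast hk
    rw [norm_smul, Real.norm_eq_abs, abs_of_pos (by positivity)]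
    have h2 := intervalIntegral.norm_integral_le_of_norm_le_const (a := -(k : ℝ)) (b := (k : ℝ))
      (f := fun t => U t y) (C := ‖y‖) (fun t _ => (hU.norm_map t y).le)
    have h3 : |(k : ℝ) - -(k : ℝ)| = 2 * k := by
      rw [sub_neg_eq_add, ← two_mul, abs_of_pos (by positivity)]
    rw [h3] at h2
    calc (2 * (k : ℝ))⁻¹ * ‖∫ t in (-(k : ℝ))..(k : ℝ), U t y‖
        ≤ (2 * (k : ℝ))⁻¹ * (‖y‖ * (2 * k)) := by gcongr
      _ = ‖y‖ := by field_simp

theorem wavg_fixed (k : ℕ) (hk : 0 < k) {x : H} (hx : ∀ t, U t x = x) : wavg U k x = x := by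
  have hk' : (k : ℝ) ≠ 0 := by exact_mod_cast hk.ne'
  unfold wavg
  simp only [hx, intervalIntegral.integral_const]
  rw [smul_smul]
  have : (2 * (k : ℝ))⁻¹ * ((k : ℝ) - -(k : ℝ)) = 1 := by field_simp; ring
  rw [this, one_smul]

theorem norm_wavg_shift_le (hU : UGroup U) (k : ℕ) (hk : 0 < k) (r : ℝ) (z : H) :
    ‖wavg U k (U r z - z)‖ ≤ ‖z‖ * |r| / k := by
  have hk' : (0 : ℝ) < k := by exact_mod_cast hk
  set g : ℝ → H := fun t => U t z with hg
  have hgc : Continuous g := hU.cont z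
  have hgb : ∀ t, ‖g t‖ ≤ ‖z‖ := fun t => (hU.norm_map t z).le
  have hint : ∀ a c : ℝ, IntervalIntegrable g volume a c := fun a c => hgc.intervalIntegrable a c
  have e1 : wavg U k (U r z - z) = ((2 * (k : ℝ))⁻¹ : ℝ) •
      ((∫ t in (-(k : ℝ) + r)..((k : ℝ) + r), g t) - ∫ t in (-(k : ℝ))..(k : ℝ), g t) := by
    unfold wavg
    congr 1
    have h : ∀ t, U t (U r z - z) = g (t + r) - g t := fun t => by
      rw [map_sub, ← hU.apply_add]
    simp only [h]
    have hgs : Continuous fun t : ℝ => g (t + r) := hgc.comp (continuous_add_const r)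
    rw [intervalIntegral.integral_sub (hgs.intervalIntegrable _ _) (hint _ _),
      intervalIntegral.integral_comp_add_right]
  rw [e1, intervalIntegral.integral_interval_sub_interval_comm (hint _ _) (hint _ _) (hint _ _)]
  have b1 : ‖∫ t in (-(k : ℝ) + r)..(-(k : ℝ)), g t‖ ≤ ‖z‖ * |r| := by
    have := intervalIntegral.norm_integral_le_of_norm_le_const (a := -(k : ℝ) + r)
      (b := -(k : ℝ)) (f := g) (C := ‖z‖) (fun t _ => hgb t)
    have e : |(-(k : ℝ)) - (-(k : ℝ) + r)| = |r| := by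
      rw [show (-(k : ℝ)) - (-(k : ℝ) + r) = -r by ring, abs_neg]
    rwa [e] at this
  have b2 : ‖∫ t in ((k : ℝ) + r)..(k : ℝ), g t‖ ≤ ‖z‖ * |r| := by
    have := intervalIntegral.norm_integral_le_of_norm_le_const (a := (k : ℝ) + r)
      (b := (k : ℝ)) (f := g) (C := ‖z‖) (fun t _ => hgb t)
    have e : |(k : ℝ) - ((k : ℝ) + r)| = |r| := by
      rw [show (k : ℝ) - ((k : ℝ) + r) = -r by ring, abs_neg]
    rwa [e] at this
  rw [norm_smul, Real.norm_eq_abs, abs_of_pos (by positivity)]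
  calc (2 * (k : ℝ))⁻¹ * ‖(∫ t in (-(k : ℝ) + r)..(-(k : ℝ)), g t)
          - ∫ t in ((k : ℝ) + r)..(k : ℝ), g t‖
      ≤ (2 * (k : ℝ))⁻¹ * (‖z‖ * |r| + ‖z‖ * |r|) := by
        gcongr
        exact (norm_sub_le _ _).trans (add_le_add b1 b2)
    _ = ‖z‖ * |r| / k := by field_simp; ring

/-- **A6 + E2 (abstract).** If the fixed space of `U` is `ℂ ξ`, the window averages of every orbit
converge in norm to `⟪ξ, z⟫ ξ`. -/
theorem tendsto_wavg (hU : UGroup U) {ξ : H} (hξ1 : ‖ξ‖ = 1) (hξ : ∀ t, U t ξ = ξ)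
    (hfix : ∀ x, (∀ t, U t x = x) → x = ⟪ξ, x⟫_ℂ • ξ) (z : H) :
    Tendsto (fun k : ℕ => wavg U k z) atTop (𝓝 (⟪ξ, z⟫_ℂ • ξ)) := by
  let L : Submodule ℂ H :=
    { carrier := {y | Tendsto (fun k : ℕ => wavg U k y) atTop (𝓝 (⟪ξ, y⟫_ℂ • ξ))}
      add_mem' := fun {a b} ha hb => by
        have ha' : Tendsto (fun k : ℕ => wavg U k a) atTop (𝓝 (⟪ξ, a⟫_ℂ • ξ)) := ha
        have hb' : Tendsto (fun k : ℕ => wavg U k b) atTop (𝓝 (⟪ξ, b⟫_ℂ • ξ)) := hb
        show Tendsto (fun k : ℕ => wavg U k (a + b)) atTop (𝓝 (⟪ξ, a + b⟫_ℂ • ξ))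
        simpa only [wavg_add hU, inner_add_right, add_smul] using ha'.add hb'
      zero_mem' := by
        show Tendsto (fun k : ℕ => wavg U k (0 : H)) atTop (𝓝 (⟪ξ, (0 : H)⟫_ℂ • ξ))
        simp only [wavg_zero, inner_zero_right, zero_smul]
        exact tendsto_const_nhds
      smul_mem' := fun c a ha => by
        have ha' : Tendsto (fun k : ℕ => wavg U k a) atTop (𝓝 (⟪ξ, a⟫_ℂ • ξ)) := ha
        show Tendsto (fun k : ℕ => wavg U k (c • a)) atTop (𝓝 (⟪ξ, c • a⟫_ℂ • ξ))
        simpa only [wavg_smul, inner_smul_right, mul_smul] using ha'.const_smul c }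
  have hmem : ∀ y, y ∈ L ↔ Tendsto (fun k : ℕ => wavg U k y) atTop (𝓝 (⟪ξ, y⟫_ℂ • ξ)) :=
    fun y => Iff.rfl
  -- `L` is closed
  have hLip : ∀ k : ℕ, LipschitzWith 1 (wavg U k) := fun k =>
    LipschitzWith.of_dist_le_mul fun y y' => by
      rw [dist_eq_norm, dist_eq_norm, ← wavg_sub hU, NNReal.coe_one, one_mul]
      exact norm_wavg_le hU k _
  have hequi : Equicontinuous (fun k : ℕ => wavg U k) :=
    (LipschitzWith.uniformEquicontinuous _ 1 hLip).equicontinuous
  have hcont : Continuous fun y : H => ⟪ξ, y⟫_ℂ • ξ :=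
    (continuous_const.inner continuous_id).smul continuous_const
  have hclosed : IsClosed (L : Set H) := hequi.isClosed_setOfPred_tendsto hcont
  -- `ξ ∈ L`
  have hξL : ξ ∈ L := by
    rw [hmem]
    have h1 : ⟪ξ, ξ⟫_ℂ • ξ = ξ := by
      rw [inner_self_eq_norm_sq_to_K, hξ1]; simp
    rw [h1]
    refine tendsto_const_nhds.congr' ?_
    filter_upwards [eventually_gt_atTop 0] with k hk
    exact (wavg_fixed k hk hξ).symm
  -- coboundaries are in `L`
  have hcob : ∀ (r : ℝ) (y : H), U r y - y ∈ L := by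
    intro r y
    rw [hmem]
    have h1 : ⟪ξ, U r y - y⟫_ℂ = 0 := by
      rw [inner_sub_right, hU.inner_apply_right, hξ, sub_self]
    rw [h1, zero_smul]
    refine squeeze_zero_norm' ?_ (tendsto_const_div_atTop_nhds_zero_nat (‖y‖ * |r|))
    filter_upwards [eventually_gt_atTop 0] with k hk
    exact norm_wavg_shift_le hU k hk r y
  -- `Lᗮ = ⊥`
  have hperp : Lᗮ = ⊥ := by
    rw [Submodule.eq_bot_iff]
    intro x hx
    rw [Submodule.mem_orthogonal] at hx
    have hxfix : ∀ t, U t x = x := by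
      intro t
      refine ext_inner_left ℂ fun y => ?_
      have h := hx _ (hcob (-t) y)
      rw [inner_sub_left, hU.inner_apply_left, neg_neg, sub_eq_zero] at h
      exact h
    have h0 : ⟪ξ, x⟫_ℂ = 0 := hx ξ hξL
    have := hfix x hxfix
    rw [h0, zero_smul] at this
    exact this
  have htop : L = ⊤ := by
    rw [← hclosed.submodule_topologicalClosure_eq]
    exact (Submodule.topologicalClosure_eq_top_iff).2 hperp
  have hz : z ∈ L := by rw [htop]; exact Submodule.mem_top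
  exact (hmem z).1 hz

/-- **E2** in the shape consumed by the assembly: under ergodicity the window averages of every
orbit of the modular unitary group converge in norm to `⟪ξ, z⟫ ξ`. -/
theorem window_avg_tendsto (S : Crest.OpAlg.ModularDatum H) (herg : S.Ergodic)
    (hvac : ∀ t, S.D.wave t S.vac = S.vac) (z : H) :
    Tendsto (fun k : ℕ => ((2 * (k : ℝ))⁻¹ : ℝ) • ∫ t in (-(k : ℝ))..(k : ℝ), S.D.wave t z)
      atTop (𝓝 (inner ℂ S.vac z • S.vac)) := by
  have hU : UGroup S.D.wave := uGroup_wave S.D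
  exact tendsto_wavg hU S.norm_vac hvac
    (fix_eq_vac hU S.M S.flow_mem S.norm_vac hvac S.cyclic (fun a ha h => herg a ha h)) z

/-- The fixed space of the modular unitary group is `ℂ ξ` (E1 on the Prelude objects). -/
theorem fix_eq_vac_modular (S : Crest.OpAlg.ModularDatum H) (herg : S.Ergodic)
    (hvac : ∀ t, S.D.wave t S.vac = S.vac) (x : H) (hx : ∀ t, S.D.wave t x = x) :
    x = inner ℂ S.vac x • S.vac :=
  fix_eq_vac (uGroup_wave S.D) S.M S.flow_mem S.norm_vac hvac S.cyclic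
    (fun a ha h => herg a ha h) x hx

end Crest.Agent.Helper77.S0112
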