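import Crest.Agent.Helper77.S0112.UGroup

/-!
# S0112 (row 84), package E1: the fixed space of the unitary group is `ℂ ξ` (Mathlib only)

Abstract form: `U` a strongly continuous unitary group fixing the cyclic unit vector `ξ` of a
von Neumann algebra `M`, `M` invariant under the flow `a ↦ U t * a * U (-t)`, and every
flow-fixed element of `M` a scalar. Then every `U`-fixed vector is a multiple of `ξ`.
-/

set_option autoImplicit false
set_option linter.unusedSectionVars false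

namespace Crest.Agent.Helper77.S0112

open MeasureTheory Filter Topology
open scoped ComplexConjugate InnerProductSpace

variable {H : Type*} [NormedAddCommGroup H] [InnerProductSpace ℂ H] [CompleteSpace H]
variable {U : ℝ → H →L[ℂ] H}

/-- Scalar window average of a matrix coefficient of the flow:
`(2k)⁻¹ ∫_{-k}^{k} ⟪y, U t (b (U (-t) z))⟫ dt`. -/
noncomputable def wq (U : ℝ → H →L[ℂ] H) (b : H →L[ℂ] H) (k : ℕ) (y z : H) : ℂ :=
  (2 * (k : ℂ))⁻¹ * ∫ t in (-(k : ℝ))..(k : ℝ), ⟪y, U t (b (U (-t) z))⟫_ℂ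

theorem continuous_coeff (hU : UGroup U) (b : H →L[ℂ] H) (y z : H) :
    Continuous fun t => ⟪y, U t (b (U (-t) z))⟫_ℂ :=
  continuous_const.inner (hU.continuous_flow b z)

theorem norm_coeff_le (hU : UGroup U) (b : H →L[ℂ] H) (y z : H) (t : ℝ) :
    ‖⟪y, U t (b (U (-t) z))⟫_ℂ‖ ≤ ‖b‖ * ‖y‖ * ‖z‖ := by
  calc ‖⟪y, U t (b (U (-t) z))⟫_ℂ‖ ≤ ‖y‖ * ‖U t (b (U (-t) z))‖ := norm_inner_le_norm _ _
    _ ≤ ‖y‖ * (‖b‖ * ‖z‖) := by gcongr; exact hU.norm_flow_le b z t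
    _ = ‖b‖ * ‖y‖ * ‖z‖ := by ring

theorem norm_wq_le (hU : UGroup U) (b : H →L[ℂ] H) (k : ℕ) (y z : H) :
    ‖wq U b k y z‖ ≤ ‖b‖ * ‖y‖ * ‖z‖ := by
  unfold wq
  rcases Nat.eq_zero_or_pos k with rfl | hk
  · simp; positivity
  · have hk' : (0 : ℝ) < k := by exact_mod_cast hk
    rw [norm_mul, norm_inv]
    have h1 : ‖(2 * (k : ℂ))‖ = 2 * k := by simp
    have h2 := intervalIntegral.norm_integral_le_of_norm_le_const (a := -(k : ℝ)) (b := (k : ℝ))
      (f := fun t => ⟪y, U t (b (U (-t) z))⟫_ℂ) (C := ‖b‖ * ‖y‖ * ‖z‖)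
      (fun t _ => norm_coeff_le hU b y z t)
    rw [h1]
    have h3 : |(k : ℝ) - -(k : ℝ)| = 2 * k := by
      rw [sub_neg_eq_add, ← two_mul, abs_of_pos (by positivity)]
    rw [h3] at h2
    calc (2 * (k : ℝ))⁻¹ * ‖∫ t in (-(k : ℝ))..(k : ℝ), ⟪y, U t (b (U (-t) z))⟫_ℂ‖
        ≤ (2 * (k : ℝ))⁻¹ * (‖b‖ * ‖y‖ * ‖z‖ * (2 * k)) := by gcongr
      _ = ‖b‖ * ‖y‖ * ‖z‖ := by field_simp

theorem wq_add_right (hU : UGroup U) (b : H →L[ℂ] H) (k : ℕ) (y z₁ z₂ : H) :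
    wq U b k y (z₁ + z₂) = wq U b k y z₁ + wq U b k y z₂ := by
  unfold wq
  have h : ∀ t, ⟪y, U t (b (U (-t) (z₁ + z₂)))⟫_ℂ
      = ⟪y, U t (b (U (-t) z₁))⟫_ℂ + ⟪y, U t (b (U (-t) z₂))⟫_ℂ := fun t => by
    simp [inner_add_right]
  simp only [h]
  rw [intervalIntegral.integral_add ((continuous_coeff hU b y z₁).intervalIntegrable _ _)
    ((continuous_coeff hU b y z₂).intervalIntegrable _ _), mul_add]

theorem wq_smul_right (hU : UGroup U) (b : H →L[ℂ] H) (k : ℕ) (y : H) (c : ℂ) (z : H) :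
    wq U b k y (c • z) = c * wq U b k y z := by
  unfold wq
  have h : ∀ t, ⟪y, U t (b (U (-t) (c • z)))⟫_ℂ = c * ⟪y, U t (b (U (-t) z))⟫_ℂ := fun t => by
    simp [inner_smul_right]
  simp only [h]
  rw [intervalIntegral.integral_const_mul]
  ring

theorem wq_add_left (hU : UGroup U) (b : H →L[ℂ] H) (k : ℕ) (y₁ y₂ z : H) :
    wq U b k (y₁ + y₂) z = wq U b k y₁ z + wq U b k y₂ z := by
  unfold wq
  simp only [inner_add_left]
  rw [intervalIntegral.integral_add ((continuous_coeff hU b y₁ z).intervalIntegrable _ _)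
    ((continuous_coeff hU b y₂ z).intervalIntegrable _ _), mul_add]

theorem wq_smul_left (b : H →L[ℂ] H) (k : ℕ) (c : ℂ) (y z : H) :
    wq U b k (c • y) z = conj c * wq U b k y z := by
  unfold wq
  simp only [inner_smul_left]
  rw [intervalIntegral.integral_const_mul]
  ring

/-- Elements of the commutant pass through the window averages. -/
theorem wq_commutant (M : VonNeumannAlgebra H)
    (hflow : ∀ t a, a ∈ M → U t * a * U (-t) ∈ M) {b : H →L[ℂ] H} (hb : b ∈ M)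
    {g : H →L[ℂ] H} (hg : g ∈ M.commutant) (k : ℕ) (y z : H) :
    wq U b k (star g y) z = wq U b k y (g z) := by
  unfold wq
  have h : ∀ t, ⟪star g y, U t (b (U (-t) z))⟫_ℂ = ⟪y, U t (b (U (-t) (g z)))⟫_ℂ := fun t => by
    have h1 := (VonNeumannAlgebra.mem_commutant_iff.1 hg) _ (hflow t b hb)
    have h2 : g (U t (b (U (-t) z))) = U t (b (U (-t) (g z))) := by
      have := congrArg (fun A : H →L[ℂ] H => A z) h1
      simpa using this.symm
    rw [ContinuousLinearMap.star_eq_adjoint, ContinuousLinearMap.adjoint_inner_left, h2]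
  simp only [h]

/-- Shifting both arguments by the group changes the window average by `O(1/k)`. -/
theorem norm_wq_shift_le (hU : UGroup U) (b : H →L[ℂ] H) (k : ℕ) (hk : 0 < k) (r : ℝ)
    (y z : H) :
    ‖wq U b k (U (-r) y) (U (-r) z) - wq U b k y z‖ ≤ ‖b‖ * ‖y‖ * ‖z‖ * |r| / k := by
  have hk' : (0 : ℝ) < k := by exact_mod_cast hk
  set g : ℝ → ℂ := fun t => ⟪y, U t (b (U (-t) z))⟫_ℂ with hg
  have hgc : Continuous g := continuous_coeff hU b y z
  have hgb : ∀ t, ‖g t‖ ≤ ‖b‖ * ‖y‖ * ‖z‖ := norm_coeff_le hU b y z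
  have hshift : ∀ t, ⟪U (-r) y, U t (b (U (-t) (U (-r) z)))⟫_ℂ = g (t + r) := fun t => by
    rw [hU.inner_apply_left, neg_neg, ← hU.apply_add, ← hU.apply_add, hg]
    simp only
    rw [add_comm r t, neg_add]
  have e1 : wq U b k (U (-r) y) (U (-r) z)
      = (2 * (k : ℂ))⁻¹ * ∫ t in (-(k : ℝ) + r)..((k : ℝ) + r), g t := by
    unfold wq
    simp only [hshift]
    rw [intervalIntegral.integral_comp_add_right]
  have e2 : wq U b k y z = (2 * (k : ℂ))⁻¹ * ∫ t in (-(k : ℝ))..(k : ℝ), g t := rfl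
  have hint : ∀ a c : ℝ, IntervalIntegrable g volume a c := fun a c => hgc.intervalIntegrable a c
  rw [e1, e2, ← mul_sub,
    intervalIntegral.integral_interval_sub_interval_comm (hint _ _) (hint _ _) (hint _ _)]
  have b1 : ‖∫ t in (-(k : ℝ) + r)..(-(k : ℝ)), g t‖ ≤ ‖b‖ * ‖y‖ * ‖z‖ * |r| := by
    have := intervalIntegral.norm_integral_le_of_norm_le_const (a := -(k : ℝ) + r)
      (b := -(k : ℝ)) (f := g) (C := ‖b‖ * ‖y‖ * ‖z‖) (fun t _ => hgb t)
    have e : |(-(k : ℝ)) - (-(k : ℝ) + r)| = |r| := by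
      rw [show (-(k : ℝ)) - (-(k : ℝ) + r) = -r by ring, abs_neg]
    rwa [e] at this
  have b2 : ‖∫ t in ((k : ℝ) + r)..(k : ℝ), g t‖ ≤ ‖b‖ * ‖y‖ * ‖z‖ * |r| := by
    have := intervalIntegral.norm_integral_le_of_norm_le_const (a := (k : ℝ) + r)
      (b := (k : ℝ)) (f := g) (C := ‖b‖ * ‖y‖ * ‖z‖) (fun t _ => hgb t)
    have e : |(k : ℝ) - ((k : ℝ) + r)| = |r| := by
      rw [show (k : ℝ) - ((k : ℝ) + r) = -r by ring, abs_neg]
    rwa [e] at this
  rw [norm_mul, norm_inv]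
  have h1 : ‖(2 * (k : ℂ))‖ = 2 * k := by simp
  rw [h1]
  calc (2 * (k : ℝ))⁻¹ * ‖(∫ t in (-(k : ℝ) + r)..(-(k : ℝ)), g t)
          - ∫ t in ((k : ℝ) + r)..(k : ℝ), g t‖
      ≤ (2 * (k : ℝ))⁻¹ * (‖b‖ * ‖y‖ * ‖z‖ * |r| + ‖b‖ * ‖y‖ * ‖z‖ * |r|) := by
        gcongr
        exact (norm_sub_le _ _).trans (add_le_add b1 b2)
    _ = ‖b‖ * ‖y‖ * ‖z‖ * |r| / k := by field_simp; ring

/-- On fixed vectors the window average is the matrix coefficient itself. -/
theorem wq_fixed (hU : UGroup U) (b : H →L[ℂ] H) (k : ℕ) (hk : 0 < k) {x ξ : H}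
    (hx : ∀ t, U t x = x) (hξ : ∀ t, U t ξ = ξ) : wq U b k x ξ = ⟪x, b ξ⟫_ℂ := by
  have hk' : (k : ℂ) ≠ 0 := by exact_mod_cast hk.ne'
  unfold wq
  have h : ∀ t, ⟪x, U t (b (U (-t) ξ))⟫_ℂ = ⟪x, b ξ⟫_ℂ := fun t => by
    rw [hξ, hU.inner_apply_right, hx]
  simp only [h, intervalIntegral.integral_const, Complex.real_smul]
  push_cast
  field_simp
  ring

/-- A flow-fixed vector orthogonal to `ξ` is orthogonal to `b ξ` for every `b ∈ M`. -/
theorem inner_eq_zero_of_fixed (hU : UGroup U) (M : VonNeumannAlgebra H)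
    (hflow : ∀ t a, a ∈ M → U t * a * U (-t) ∈ M) {ξ : H} (hξ : ∀ t, U t ξ = ξ)
    (herg : ∀ a : H →L[ℂ] H, a ∈ M → (∀ t, U t * a * U (-t) = a) →
      ∃ c : ℂ, a = c • (1 : H →L[ℂ] H))
    {x : H} (hx : ∀ t, U t x = x) (hxξ : ⟪x, ξ⟫_ℂ = 0) {b : H →L[ℂ] H} (hb : b ∈ M) :
    ⟪x, b ξ⟫_ℂ = 0 := by
  let ω : Ultrafilter ℕ := Ultrafilter.of atTop
  have hω : (ω : Filter ℕ) ≤ atTop := Ultrafilter.of_le atTop
  obtain ⟨A, -, hA⟩ := exists_weak_limit (fun k => wq U b k) ‖b‖ (norm_nonneg _)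
    (fun k y z₁ z₂ => wq_add_right hU b k y z₁ z₂) (fun k y c z => wq_smul_right hU b k y c z)
    (fun k y₁ y₂ z => wq_add_left hU b k y₁ y₂ z) (fun k c y z => wq_smul_left b k c y z)
    (fun k y z => norm_wq_le hU b k y z) ω
  -- `A ∈ M`
  have hAM : A ∈ M := by
    rw [← VonNeumannAlgebra.commutant_commutant M, VonNeumannAlgebra.mem_commutant_iff]
    intro g hg
    refine ContinuousLinearMap.ext fun z => ext_inner_left ℂ fun y => ?_
    have h1 : ⟪y, (g * A) z⟫_ℂ = ⟪star g y, A z⟫_ℂ := by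
      rw [ContinuousLinearMap.star_eq_adjoint, ContinuousLinearMap.adjoint_inner_left]; rfl
    have h2 : ⟪y, (A * g) z⟫_ℂ = ⟪y, A (g z)⟫_ℂ := rfl
    rw [h1, h2]
    refine tendsto_nhds_unique (hA (star g y) z) ?_
    have := hA y (g z)
    simpa only [wq_commutant M hflow hb hg] using this
  -- `A` is flow-fixed
  have hAfix : ∀ r, U r * A * U (-r) = A := by
    intro r
    refine ContinuousLinearMap.ext fun z => ext_inner_left ℂ fun y => ?_
    have h1 : ⟪y, (U r * A * U (-r)) z⟫_ℂ = ⟪U (-r) y, A (U (-r) z)⟫_ℂ := by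
      rw [hU.inner_apply_left, neg_neg]; rfl
    rw [h1]
    refine tendsto_nhds_unique (hA (U (-r) y) (U (-r) z)) ?_
    have hd : Tendsto (fun k : ℕ => wq U b k (U (-r) y) (U (-r) z) - wq U b k y z) atTop
        (𝓝 0) := by
      refine squeeze_zero_norm' ?_
        (tendsto_const_div_atTop_nhds_zero_nat (‖b‖ * ‖y‖ * ‖z‖ * |r|))
      filter_upwards [eventually_gt_atTop 0] with k hk
      exact norm_wq_shift_le hU b k hk r y z
    have := (hd.mono_left hω).add (hA y z)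
    simpa using this
  obtain ⟨c, hc⟩ := herg A hAM hAfix
  have h1 : ⟪x, A ξ⟫_ℂ = ⟪x, b ξ⟫_ℂ := by
    refine tendsto_nhds_unique (hA x ξ) ?_
    refine Tendsto.mono_left ?_ hω
    refine tendsto_const_nhds.congr' ?_
    filter_upwards [eventually_gt_atTop 0] with k hk
    exact (wq_fixed hU b k hk hx hξ).symm
  rw [← h1, hc]
  simp [inner_smul_right, hxξ]

/-- **E1.** Under ergodicity of the flow on `M` the fixed space of the unitary group is `ℂ ξ`. -/
theorem fix_eq_vac (hU : UGroup U) (M : VonNeumannAlgebra H)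
    (hflow : ∀ t a, a ∈ M → U t * a * U (-t) ∈ M) {ξ : H} (hξ1 : ‖ξ‖ = 1)
    (hξ : ∀ t, U t ξ = ξ)
    (hcyc : Dense (Set.range fun a : M => (a : H →L[ℂ] H) ξ))
    (herg : ∀ a : H →L[ℂ] H, a ∈ M → (∀ t, U t * a * U (-t) = a) →
      ∃ c : ℂ, a = c • (1 : H →L[ℂ] H))
    (x : H) (hx : ∀ t, U t x = x) : x = ⟪ξ, x⟫_ℂ • ξ := by
  set x' : H := x - ⟪ξ, x⟫_ℂ • ξ with hx'
  have hfix : ∀ t, U t x' = x' := fun t => by
    rw [hx', map_sub, map_smul, hx, hξ]
  have horth : ⟪x', ξ⟫_ℂ = 0 := by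
    rw [hx', inner_sub_left, inner_smul_left, inner_conj_symm, inner_self_eq_norm_sq_to_K, hξ1]
    simp
  have hzero : ∀ y : H, ⟪x', y⟫_ℂ = 0 := by
    have hcl : IsClosed {y : H | ⟪x', y⟫_ℂ = 0} :=
      isClosed_eq (continuous_const.inner continuous_id) continuous_const
    have hsub : Set.range (fun a : M => (a : H →L[ℂ] H) ξ) ⊆ {y : H | ⟪x', y⟫_ℂ = 0} := by
      rintro _ ⟨a, rfl⟩
      exact inner_eq_zero_of_fixed hU M hflow hξ herg hfix horth a.2
    intro y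
    have := hcl.closure_subset_iff.2 hsub
    rw [hcyc.closure_eq] at this
    exact this (Set.mem_univ y)
  have : x' = 0 := inner_self_eq_zero.1 (hzero x')
  exact sub_eq_zero.1 this

end Crest.Agent.Helper77.S0112
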