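import Crest.Agent.Helper77.S0112.UGroup

/-!
# S0112 (row 84), package D: smoothing inside `M` (Mathlib only)

For a strongly continuous unitary group `U`, an integrable `f : ℝ → ℂ` and a bounded operator `a`
the operator `flowAvg U f a = σ_f(a)` is `z ↦ ∫ t, f t • U t (a (U (-t) z))` (pointwise Bochner
integral). It has norm `≤ ‖f‖₁ ‖a‖`, stays in a von Neumann algebra `M` that is invariant under
the flow, its adjoint is `σ_{conj f}(a*)`, and on a fixed vector `ξ` it is
`∫ t, f t • U t (a ξ)`.
-/

set_option autoImplicit false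
set_option linter.unusedSectionVars false

namespace Crest.Agent.Helper77.S0112

open MeasureTheory Filter Topology
open scoped ComplexConjugate InnerProductSpace

variable {H : Type*} [NormedAddCommGroup H] [InnerProductSpace ℂ H] [CompleteSpace H]
variable {U : ℝ → H →L[ℂ] H} {f : ℝ → ℂ}

theorem integrable_flow (hU : UGroup U) (hf : Integrable f) (a : H →L[ℂ] H) (z : H) :
    Integrable fun t => f t • U t (a (U (-t) z)) := by
  refine Integrable.mono' (g := fun t => ‖f t‖ * (‖a‖ * ‖z‖)) (hf.norm.mul_const _)
    (hf.aestronglyMeasurable.smul (hU.continuous_flow a z).aestronglyMeasurable)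
    (Filter.Eventually.of_forall fun t => ?_)
  rw [norm_smul]
  gcongr
  exact hU.norm_flow_le a z t

theorem norm_integral_flow_le (hU : UGroup U) (hf : Integrable f) (a : H →L[ℂ] H) (z : H) :
    ‖∫ t, f t • U t (a (U (-t) z))‖ ≤ (∫ t, ‖f t‖) * ‖a‖ * ‖z‖ := by
  have h := norm_integral_le_of_norm_le (μ := volume)
    (f := fun t => f t • U t (a (U (-t) z))) (g := fun t => ‖f t‖ * (‖a‖ * ‖z‖))
    (hf.norm.mul_const _) (Filter.Eventually.of_forall fun t => by
      rw [norm_smul]
      gcongr
      exact hU.norm_flow_le a z t)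
  rw [integral_mul_const] at h
  calc ‖∫ t, f t • U t (a (U (-t) z))‖ ≤ (∫ t, ‖f t‖) * (‖a‖ * ‖z‖) := h
    _ = (∫ t, ‖f t‖) * ‖a‖ * ‖z‖ := by ring

open Classical in
/-- `σ_f(a)`: the flow average of `a` against the weight `f` (junk `0` unless `U` is a unitary
group and `f` is integrable). -/
noncomputable def flowAvg (U : ℝ → H →L[ℂ] H) (f : ℝ → ℂ) (a : H →L[ℂ] H) : H →L[ℂ] H :=
  if h : UGroup U ∧ Integrable f then
    LinearMap.mkContinuous
      { toFun := fun z => ∫ t, f t • U t (a (U (-t) z))
        map_add' := fun z₁ z₂ => by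
          rw [← integral_add (integrable_flow h.1 h.2 a z₁) (integrable_flow h.1 h.2 a z₂)]
          refine integral_congr_ae (Filter.Eventually.of_forall fun t => ?_)
          simp only [map_add, smul_add]
        map_smul' := fun c z => by
          simp only [RingHom.id_apply]
          rw [← integral_smul]
          refine integral_congr_ae (Filter.Eventually.of_forall fun t => ?_)
          simp only [map_smul]
          rw [smul_comm] }
      ((∫ t, ‖f t‖) * ‖a‖) (fun z => norm_integral_flow_le h.1 h.2 a z)
  else 0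

theorem flowAvg_apply (hU : UGroup U) (hf : Integrable f) (a : H →L[ℂ] H) (z : H) :
    flowAvg U f a z = ∫ t, f t • U t (a (U (-t) z)) := by
  unfold flowAvg
  rw [dif_pos ⟨hU, hf⟩]
  rfl

theorem norm_flowAvg_le (hU : UGroup U) (hf : Integrable f) (a : H →L[ℂ] H) :
    ‖flowAvg U f a‖ ≤ (∫ t, ‖f t‖) * ‖a‖ := by
  refine ContinuousLinearMap.opNorm_le_bound _
    (mul_nonneg (integral_nonneg fun t => norm_nonneg _) (norm_nonneg _)) fun z => ?_
  rw [flowAvg_apply hU hf]
  exact norm_integral_flow_le hU hf a z

/-- `σ_f` maps a flow-invariant von Neumann algebra into itself. -/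
theorem flowAvg_mem (hU : UGroup U) (hf : Integrable f) (M : VonNeumannAlgebra H)
    (hflow : ∀ t a, a ∈ M → U t * a * U (-t) ∈ M) {a : H →L[ℂ] H} (ha : a ∈ M) :
    flowAvg U f a ∈ M := by
  rw [← VonNeumannAlgebra.commutant_commutant M, VonNeumannAlgebra.mem_commutant_iff]
  intro g hg
  refine ContinuousLinearMap.ext fun z => ?_
  have h1 : (g * flowAvg U f a) z = g (flowAvg U f a z) := rfl
  have h2 : (flowAvg U f a * g) z = flowAvg U f a (g z) := rfl
  rw [h1, h2, flowAvg_apply hU hf, flowAvg_apply hU hf,
    ← ContinuousLinearMap.integral_comp_comm g (integrable_flow hU hf a z)]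
  refine integral_congr_ae (Filter.Eventually.of_forall fun t => ?_)
  have h3 := (VonNeumannAlgebra.mem_commutant_iff.1 hg) _ (hflow t a ha)
  have h4 : g (U t (a (U (-t) z))) = U t (a (U (-t) (g z))) := by
    have := congrArg (fun A : H →L[ℂ] H => A z) h3
    simpa using this.symm
  simp only [map_smul, h4]

/-- On a fixed vector: `σ_f(a) ξ = ∫ f(t) U_t (a ξ) dt`. -/
theorem flowAvg_vac (hU : UGroup U) (hf : Integrable f) {ξ : H} (hξ : ∀ t, U t ξ = ξ)
    (a : H →L[ℂ] H) : flowAvg U f a ξ = ∫ t, f t • U t (a ξ) := by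
  rw [flowAvg_apply hU hf]
  simp only [hξ]

theorem integrable_conj (hf : Integrable f) : Integrable fun t => conj (f t) := by
  refine Integrable.mono' hf.norm ?_ (Filter.Eventually.of_forall fun t => ?_)
  · exact (Complex.continuous_conj.measurable.comp_aemeasurable
      hf.aestronglyMeasurable.aemeasurable).aestronglyMeasurable
  · simp

/-- `σ_f(a)* = σ_{conj f}(a*)`. -/
theorem star_flowAvg (hU : UGroup U) (hf : Integrable f) (a : H →L[ℂ] H) :
    star (flowAvg U f a) = flowAvg U (fun t => conj (f t)) (star a) := by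
  have hf' := integrable_conj hf
  rw [ContinuousLinearMap.star_eq_adjoint]
  symm
  rw [ContinuousLinearMap.eq_adjoint_iff]
  intro y z
  rw [flowAvg_apply hU hf', flowAvg_apply hU hf,
    ← integral_inner (integrable_flow hU hf a z) y, ← inner_conj_symm,
    ← integral_inner (integrable_flow hU hf' (star a) y) z, ← integral_conj]
  refine integral_congr_ae (Filter.Eventually.of_forall fun t => ?_)
  simp only [inner_smul_right, map_mul, RingHomCompTriple.comp_apply, RingHom.id_apply,
    inner_conj_symm]
  congr 1
  rw [hU.inner_apply_left, ContinuousLinearMap.star_eq_adjoint,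
    ContinuousLinearMap.adjoint_inner_left, hU.inner_apply_right]

end Crest.Agent.Helper77.S0112
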