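import Mathlib

/-!
# S0112 (row 84), packages D/E support: strongly continuous unitary groups (Mathlib only)

`UGroup U` : `U : ℝ → H →L[ℂ] H` is a strongly continuous one-parameter unitary group.
Basic algebra, adjoints, joint continuity, and a general lemma producing weak (ultrafilter)
limits of uniformly bounded sesquilinear forms as bounded operators.
-/

set_option autoImplicit false
set_option linter.unusedSectionVars false

namespace Crest.Agent.Helper77.S0112

open MeasureTheory Filter Topology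
open scoped ComplexConjugate InnerProductSpace

variable {H : Type*} [NormedAddCommGroup H] [InnerProductSpace ℂ H] [CompleteSpace H]

/-- A strongly continuous one-parameter unitary group on `H`. -/
structure UGroup (U : ℝ → H →L[ℂ] H) : Prop where
  zero : U 0 = 1
  add : ∀ s t, U (s + t) = U s * U t
  norm_map : ∀ t x, ‖U t x‖ = ‖x‖
  cont : ∀ x, Continuous fun t => U t x

namespace UGroup

variable {U : ℝ → H →L[ℂ] H}

theorem apply_add (hU : UGroup U) (s t : ℝ) (x : H) : U (s + t) x = U s (U t x) := by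
  rw [hU.add]; rfl

theorem apply_zero (hU : UGroup U) (x : H) : U 0 x = x := by
  rw [hU.zero]; rfl

theorem neg_apply_apply (hU : UGroup U) (t : ℝ) (x : H) : U (-t) (U t x) = x := by
  rw [← hU.apply_add, neg_add_cancel, hU.apply_zero]

theorem apply_neg_apply (hU : UGroup U) (t : ℝ) (x : H) : U t (U (-t) x) = x := by
  rw [← hU.apply_add, add_neg_cancel, hU.apply_zero]

theorem inner_map_map (hU : UGroup U) (t : ℝ) (x y : H) : ⟪U t x, U t y⟫_ℂ = ⟪x, y⟫_ℂ := by
  let L : H →ₗᵢ[ℂ] H := ⟨(U t).toLinearMap, hU.norm_map t⟩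
  exact L.inner_map_map x y

theorem inner_apply_left (hU : UGroup U) (t : ℝ) (x y : H) :
    ⟪U t x, y⟫_ℂ = ⟪x, U (-t) y⟫_ℂ := by
  conv_lhs => rw [← hU.apply_neg_apply t y]
  exact hU.inner_map_map t x _

theorem inner_apply_right (hU : UGroup U) (t : ℝ) (x y : H) :
    ⟪x, U t y⟫_ℂ = ⟪U (-t) x, y⟫_ℂ := by
  rw [hU.inner_apply_left, neg_neg]

theorem star_eq (hU : UGroup U) (t : ℝ) : star (U t) = U (-t) := by
  rw [ContinuousLinearMap.star_eq_adjoint]
  symm
  rw [ContinuousLinearMap.eq_adjoint_iff]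
  intro x y
  rw [hU.inner_apply_left, neg_neg]

theorem norm_le_one (hU : UGroup U) (t : ℝ) : ‖U t‖ ≤ 1 :=
  ContinuousLinearMap.opNorm_le_bound _ zero_le_one fun x => by rw [hU.norm_map, one_mul]

/-- Joint continuity: `t ↦ U t (g t)` is continuous for continuous `g`. -/
theorem continuous_apply (hU : UGroup U) {g : ℝ → H} (hg : Continuous g) :
    Continuous fun t => U t (g t) := by
  rw [continuous_iff_continuousAt]
  intro t0
  have h1 : Tendsto (fun t => U t (g t - g t0)) (𝓝 t0) (𝓝 0) := by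
    rw [tendsto_zero_iff_norm_tendsto_zero]
    simp only [hU.norm_map]
    have h := ((hg.tendsto t0).sub_const (g t0)).norm
    simpa using h
  have h2 : Tendsto (fun t => U t (g t0)) (𝓝 t0) (𝓝 (U t0 (g t0))) :=
    (hU.cont (g t0)).tendsto t0
  have h3 := h1.add h2
  simp only [map_sub, sub_add_cancel, zero_add] at h3
  exact h3

theorem continuous_flow (hU : UGroup U) (a : H →L[ℂ] H) (z : H) :
    Continuous fun t => U t (a (U (-t) z)) :=
  hU.continuous_apply (a.continuous.comp ((hU.cont z).comp continuous_neg))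

theorem norm_flow_le (hU : UGroup U) (a : H →L[ℂ] H) (z : H) (t : ℝ) :
    ‖U t (a (U (-t) z))‖ ≤ ‖a‖ * ‖z‖ := by
  calc ‖U t (a (U (-t) z))‖ = ‖a (U (-t) z)‖ := hU.norm_map _ _
    _ ≤ ‖a‖ * ‖U (-t) z‖ := a.le_opNorm _
    _ = ‖a‖ * ‖z‖ := by rw [hU.norm_map]

end UGroup

/-- Weak (ultrafilter) limits of uniformly bounded sesquilinear forms are given by bounded
operators. -/
theorem exists_weak_limit (q : ℕ → H → H → ℂ) (C : ℝ) (hC : 0 ≤ C)
    (hadd_r : ∀ k y z₁ z₂, q k y (z₁ + z₂) = q k y z₁ + q k y z₂)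
    (hsmul_r : ∀ k y (c : ℂ) z, q k y (c • z) = c * q k y z)
    (hadd_l : ∀ k y₁ y₂ z, q k (y₁ + y₂) z = q k y₁ z + q k y₂ z)
    (hsmul_l : ∀ k (c : ℂ) y z, q k (c • y) z = conj c * q k y z)
    (hbd : ∀ k y z, ‖q k y z‖ ≤ C * ‖y‖ * ‖z‖) (ω : Ultrafilter ℕ) :
    ∃ A : H →L[ℂ] H, ‖A‖ ≤ C ∧ ∀ y z, Tendsto (fun k => q k y z) ω (𝓝 ⟪y, A z⟫_ℂ) := by
  have hex : ∀ y z, ∃ L : ℂ, Tendsto (fun k => q k y z) ω (𝓝 L) := by
    intro y z
    have hc : IsCompact (Metric.closedBall (0 : ℂ) (C * ‖y‖ * ‖z‖)) := isCompact_closedBall _ _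
    obtain ⟨L, -, hL⟩ := hc.ultrafilter_le_nhds (ω.map fun k => q k y z) (by
      rw [Ultrafilter.coe_map, le_principal_iff]
      exact Filter.mem_map.2 (Filter.univ_mem' fun k => by simpa using hbd k y z))
    exact ⟨L, hL⟩
  choose ℓ hℓ using hex
  have ℓ_add_r : ∀ y z₁ z₂, ℓ y (z₁ + z₂) = ℓ y z₁ + ℓ y z₂ := fun y z₁ z₂ =>
    tendsto_nhds_unique (hℓ y (z₁ + z₂))
      (by simpa only [hadd_r] using (hℓ y z₁).add (hℓ y z₂))
  have ℓ_smul_r : ∀ y (c : ℂ) z, ℓ y (c • z) = c * ℓ y z := fun y c z =>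
    tendsto_nhds_unique (hℓ y (c • z))
      (by simpa only [hsmul_r] using (hℓ y z).const_mul c)
  have ℓ_add_l : ∀ y₁ y₂ z, ℓ (y₁ + y₂) z = ℓ y₁ z + ℓ y₂ z := fun y₁ y₂ z =>
    tendsto_nhds_unique (hℓ (y₁ + y₂) z)
      (by simpa only [hadd_l] using (hℓ y₁ z).add (hℓ y₂ z))
  have ℓ_smul_l : ∀ (c : ℂ) y z, ℓ (c • y) z = conj c * ℓ y z := fun c y z =>
    tendsto_nhds_unique (hℓ (c • y) z)
      (by simpa only [hsmul_l] using (hℓ y z).const_mul (conj c))
  have ℓ_bd : ∀ y z, ‖ℓ y z‖ ≤ C * ‖y‖ * ‖z‖ := fun y z =>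
    le_of_tendsto' (hℓ y z).norm fun k => hbd k y z
  -- the functional `y ↦ conj (ℓ y z)`
  let φ : H → (H →L[ℂ] ℂ) := fun z => LinearMap.mkContinuous
    { toFun := fun y => conj (ℓ y z)
      map_add' := fun y₁ y₂ => by simp [ℓ_add_l]
      map_smul' := fun c y => by simp [ℓ_smul_l] } (C * ‖z‖) (fun y => by
        simp only [LinearMap.coe_mk, AddHom.coe_mk, RCLike.norm_conj]
        calc ‖ℓ y z‖ ≤ C * ‖y‖ * ‖z‖ := ℓ_bd y z
          _ = C * ‖z‖ * ‖y‖ := by ring)
  have hφ : ∀ z y, φ z y = conj (ℓ y z) := fun z y => rfl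
  have hφn : ∀ z, ‖φ z‖ ≤ C * ‖z‖ := fun z =>
    LinearMap.mkContinuous_norm_le _ (by positivity) _
  let a : H → H := fun z => (InnerProductSpace.toDual ℂ H).symm (φ z)
  have ha : ∀ z y, ⟪a z, y⟫_ℂ = conj (ℓ y z) := fun z y => by
    simp only [a]
    rw [InnerProductSpace.toDual_symm_apply, hφ]
  have ha' : ∀ y z, ⟪y, a z⟫_ℂ = ℓ y z := fun y z => by
    rw [← inner_conj_symm, ha, RingHomCompTriple.comp_apply, RingHom.id_apply]
  let A : H →L[ℂ] H := LinearMap.mkContinuous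
    { toFun := a
      map_add' := fun z₁ z₂ => ext_inner_left ℂ fun y => by
        rw [inner_add_right, ha', ha', ha', ℓ_add_r]
      map_smul' := fun c z => ext_inner_left ℂ fun y => by
        rw [RingHom.id_apply, inner_smul_right, ha', ha', ℓ_smul_r] } C (fun z => by
        simp only [LinearMap.coe_mk, AddHom.coe_mk, a, LinearIsometryEquiv.norm_map]
        exact hφn z)
  refine ⟨A, LinearMap.mkContinuous_norm_le _ hC _, fun y z => ?_⟩
  have : ⟪y, A z⟫_ℂ = ℓ y z := ha' y z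
  rw [this]
  exact hℓ y z

end Crest.Agent.Helper77.S0112
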